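import Mathlib
import Vale.Agent.Helper20.P075Model
import Vale.Agent.Helper19.P075Pair

/-!
P075, question Q2 (dyadic triangular Hilbert form), in the exact finite model of the dyadic
form on step functions (see `Vale.Agent.Helper20.P075Model`).

On the class of real pair tensors (tensor products over consecutive pairs of binary digits of
arbitrary real functions of two digit pairs; the three inputs and the blocks may all differ)
the `L^3` bound of Q2 holds with the constant `3`, for all coefficients of absolute value at
most one and any number of scales; and `3` is the optimal constant on this class.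
-/

namespace Vale.Agent.Results.P075.PairTensorBound

open Vale.Agent.Helper20.P075

theorem result :
    (∀ (k : ℕ) (ε : Fin (k * 2) → ℝ)
        (f0 f1 f2 : Fin k → (Fin 2 → ZMod 2) → (Fin 2 → ZMod 2) → ℝ),
        (∀ j, |ε j| ≤ 1) →
        |form (k * 2) ε (pairTensor k f0) (pairTensor k f1) (pairTensor k f2)|
          ≤ 3 * (norm3 (k * 2) (pairTensor k f0) * norm3 (k * 2) (pairTensor k f1)
            * norm3 (k * 2) (pairTensor k f2))) ∧
    (∀ C : ℝ, C < 3 →
      ∃ (k : ℕ) (ε : Fin (k * 2) → ℝ)
        (f0 f1 f2 : Fin k → (Fin 2 → ZMod 2) → (Fin 2 → ZMod 2) → ℝ),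
        (∀ j, |ε j| ≤ 1) ∧
        C * (norm3 (k * 2) (pairTensor k f0) * norm3 (k * 2) (pairTensor k f1)
            * norm3 (k * 2) (pairTensor k f2))
          < |form (k * 2) ε (pairTensor k f0) (pairTensor k f1) (pairTensor k f2)|) :=
  ⟨fun k ε f0 f1 f2 hε => Vale.Agent.Helper19.P075Pair.pair_bound k ε hε f0 f1 f2,
    Vale.Agent.Helper19.P075Pair.pair_sharp⟩

end Vale.Agent.Results.P075.PairTensorBound
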