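import Mathlib
import Vale.Agent.Helper19.P075Pair

/-!
P075, question Q2 (dyadic triangular Hilbert form): the `L^3` bound with constant `3` on pair
tensors, in the finite model of the dyadic form on step functions, stated with no definitions
beyond Mathlib.

Strings of `N = 2k` binary digits are the elements of `Fin N → ZMod 2` (digit `0` first), and
functions on pairs of strings stand for functions on `[0,1)^2` that are constant on dyadic
squares of side `2^(-N)`.  In the statement

* `T f` is the pair tensor of `f`: the product over the `k` blocks `i` of `f i` evaluated at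
  the digit pairs `(x (2i), x (2i+1))` and `(y (2i), y (2i+1))` (`finProdFinEquiv (i, b)` is
  the index `2i + b`);
* `K j t` is the kernel of scale `j`: `2^j` times the sign `+1` or `-1` given by digit `j` of
  `t`, when the first `j` digits of `t` vanish, and `0` otherwise;
* `nrm F` is the `L^3` norm of `F` for the normalised counting measure.

The left-hand side is the absolute value of the dyadic form with coefficients `ε` on the
scales `0, ..., N - 1`.
-/

namespace Vale.Agent.Results.P075.PairTensorPlain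

open Finset

theorem result (k : ℕ) (ε : Fin (k * 2) → ℝ)
    (f0 f1 f2 : Fin k → (Fin 2 → ZMod 2) → (Fin 2 → ZMod 2) → ℝ)
    (hε : ∀ j, |ε j| ≤ 1) :
    let T : (Fin k → (Fin 2 → ZMod 2) → (Fin 2 → ZMod 2) → ℝ) →
        (Fin (k * 2) → ZMod 2) → (Fin (k * 2) → ZMod 2) → ℝ := fun f x y =>
      ∏ i : Fin k,
        f i (fun b => x (finProdFinEquiv (i, b))) (fun b => y (finProdFinEquiv (i, b)))
    let K : Fin (k * 2) → (Fin (k * 2) → ZMod 2) → ℝ := fun j t =>
      if ∀ i : Fin (k * 2), (i : ℕ) < (j : ℕ) → t i = 0 then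
        (2 : ℝ) ^ (j : ℕ) * (if t j = 0 then 1 else -1)
      else 0
    let nrm : ((Fin (k * 2) → ZMod 2) → (Fin (k * 2) → ZMod 2) → ℝ) → ℝ := fun F =>
      ((∑ x : Fin (k * 2) → ZMod 2, ∑ y : Fin (k * 2) → ZMod 2, |F x y| ^ 3)
        / (2 : ℝ) ^ (2 * (k * 2))) ^ ((1 : ℝ) / 3)
    |∑ j : Fin (k * 2), ε j *
        ((∑ x0 : Fin (k * 2) → ZMod 2, ∑ x1 : Fin (k * 2) → ZMod 2,
            ∑ x2 : Fin (k * 2) → ZMod 2,
              K j (x0 + x1 + x2) * (T f0 x0 x1 * T f1 x1 x2 * T f2 x2 x0))
          / (2 : ℝ) ^ (3 * (k * 2)))|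
      ≤ 3 * (nrm (T f0) * nrm (T f1) * nrm (T f2)) := by
  intro T K nrm
  have hK : K = fun j t => Vale.Agent.Helper20.P075.ker (k * 2) j t := by
    funext j t
    unfold Vale.Agent.Helper20.P075.ker Vale.Agent.Helper20.P075.sgn Vale.Agent.Helper20.P075.Lead
    show (if ∀ i : Fin (k * 2), (i : ℕ) < (j : ℕ) → t i = 0 then _ else _) = _
    split_ifs <;> rfl
  have h := Vale.Agent.Helper19.P075Pair.pair_bound k ε hε f0 f1 f2
  rw [hK]
  exact h

end Vale.Agent.Results.P075.PairTensorPlain
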