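import Mathlib
import Vale.Agent.Helper20.P075Model
import Vale.Agent.Helper20.P075Tower

/-!
P075, question Q2 (dyadic triangular Hilbert form).  In the exact finite model of the dyadic
form on step functions (see `Vale.Agent.Helper20.P075Model`), the tensor powers of an explicit
two-digit quadratic-phase gadget, with alternating coefficients, give the value `3 - 3 / 2^k`
on `2k` consecutive scales, all functions having absolute value one.  Hence every admissible
constant in the `L^3` bound is at least `3`.
-/

namespace Vale.Agent.Results.P075.TowerLowerBound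

open Vale.Agent.Helper20.P075

theorem result :
    (∀ k : ℕ, ∃ (ε : Fin (k * 2) → ℝ) (g : (Fin 2 → ZMod 2) → (Fin 2 → ZMod 2) → ℝ),
        (∀ j, |ε j| = 1) ∧
        (∀ x y, |pairTensor k (fun _ => g) x y| = 1) ∧
        norm3 (k * 2) (pairTensor k (fun _ => g)) = 1 ∧
        form (k * 2) ε (pairTensor k (fun _ => g)) (pairTensor k (fun _ => g))
            (pairTensor k (fun _ => g)) = 3 - 3 / (2 : ℝ) ^ k) ∧
    (∀ C : ℝ,
        (∀ (N : ℕ) (ε : Fin N → ℝ) (F0 F1 F2 : G N → G N → ℝ), (∀ j, |ε j| ≤ 1) →
          |form N ε F0 F1 F2| ≤ C * (norm3 N F0 * norm3 N F1 * norm3 N F2)) →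
        3 ≤ C) :=
  ⟨fun k => ⟨towerSign k, gad, towerSign_abs k, tower_abs k,
      norm3_of_abs_one (k * 2) (tower k) (tower_abs k), form_tower k⟩,
    const_ge_three⟩

end Vale.Agent.Results.P075.TowerLowerBound
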